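import Mathlib

/-! Weak limits along ultrafilters, minimal invariant sets, the Goebel-Karlovitz lemma and
resolvents of nonexpansive maps. -/

open Filter Topology Set

namespace Vale.Agent.P079

variable {X : Type*} [NormedAddCommGroup X] [NormedSpace ℝ X]

/-- `x` is the weak limit of `f` along the filter `U`. -/
def WLim {ι : Type*} (U : Filter ι) (f : ι → X) (x : X) : Prop :=
  ∀ φ : StrongDual ℝ X, Tendsto (fun i => φ (f i)) U (𝓝 (φ x))

/-- Every ultrafilter living on `C` has a weak limit. -/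
def WC (C : Set X) : Prop :=
  ∀ U : Ultrafilter X, C ∈ U → ∃ x, WLim (U : Filter X) id x

theorem WC.exists {C : Set X} (h : WC C) {ι : Type*} (U : Ultrafilter ι) (f : ι → X)
    (hf : ∀ i, f i ∈ C) : ∃ x, WLim (U : Filter ι) f x := by
  obtain ⟨x, hx⟩ := h (U.map f) (by
    rw [Ultrafilter.mem_map]
    exact Filter.mem_of_superset Filter.univ_mem (fun i _ => hf i))
  refine ⟨x, fun φ => ?_⟩
  have := hx φ
  rw [Ultrafilter.coe_map, tendsto_map'_iff] at this
  exact this

theorem WC.mono {C K : Set X} (h : WC C) (hK : K ⊆ C) : WC K :=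
  fun U hU => h U (Filter.mem_of_superset hU hK)

theorem WLim.sub {ι : Type*} {U : Filter ι} {f g : ι → X} {x y : X} (hf : WLim U f x)
    (hg : WLim U g y) : WLim U (fun i => f i - g i) (x - y) := by
  intro φ
  simpa [map_sub] using (hf φ).sub (hg φ)

theorem WLim.const {ι : Type*} (U : Filter ι) (x : X) : WLim U (fun _ => x) x :=
  fun _ => tendsto_const_nhds

theorem WLim.smul {ι : Type*} {U : Filter ι} {f : ι → X} {x : X} (hf : WLim U f x) (c : ℝ) :
    WLim U (fun i => c • f i) (c • x) := by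
  intro φ
  simpa [map_smul] using (hf φ).const_mul c

theorem WLim.norm_le {ι : Type*} {U : Filter ι} [U.NeBot] {f : ι → X} {x : X} (hf : WLim U f x)
    {c : ℝ} (h : ∀ ε > 0, ∀ᶠ i in U, ‖f i‖ ≤ c + ε) : ‖x‖ ≤ c := by
  obtain ⟨φ, hφ, hx⟩ := exists_dual_vector'' ℝ x
  refine le_of_forall_pos_le_add fun ε hε => ?_
  have h1 : φ x ≤ c + ε := by
    refine le_of_tendsto (hf φ) ((h ε hε).mono fun i hi => ?_)
    calc φ (f i) ≤ ‖φ (f i)‖ := le_abs_self _
      _ ≤ ‖φ‖ * ‖f i‖ := φ.le_opNorm _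
      _ ≤ 1 * ‖f i‖ := by gcongr
      _ ≤ c + ε := by simpa using hi
  simpa [hx] using h1

theorem WLim.mem {ι : Type*} {U : Filter ι} [U.NeBot] {f : ι → X} {x : X} (hf : WLim U f x)
    {C : Set X} (hc : Convex ℝ C) (hcl : IsClosed C) (h : ∀ᶠ i in U, f i ∈ C) : x ∈ C := by
  by_contra hx
  obtain ⟨φ, u, h1, h2⟩ := geometric_hahn_banach_closed_point hc hcl hx
  have : φ x ≤ u := le_of_tendsto (hf φ) (h.mono fun i hi => (h1 _ hi).le)
  linarith

/-- Nonempty closed convex invariant subsets. -/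
structure Inv (T : X → X) (K : Set X) : Prop where
  ne : K.Nonempty
  closed : IsClosed K
  convex : Convex ℝ K
  maps : MapsTo T K K

/-- Minimal invariant sets. -/
structure MinInv (T : X → X) (K : Set X) : Prop extends Inv T K where
  min : ∀ L, L ⊆ K → Inv T L → L = K

theorem exists_minInv {T : X → X} {C : Set X} (hC : Inv T C) (hw : WC C) :
    ∃ K, K ⊆ C ∧ MinInv T K := by
  have key : ∀ c ⊆ {K | K ⊆ C ∧ Inv T K}, IsChain (· ⊆ ·) c → c.Nonempty →
      ∃ lb ∈ {K | K ⊆ C ∧ Inv T K}, ∀ s ∈ c, lb ⊆ s := by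
    intro c hc hchain hne
    refine ⟨⋂₀ c, ⟨?_, ?_⟩, fun s hs => sInter_subset_of_mem hs⟩
    · obtain ⟨s, hs⟩ := hne
      exact (sInter_subset_of_mem hs).trans (hc hs).1
    · have : Nonempty c := hne.to_subtype
      have hdir : Directed (· ≥ ·) (fun s : c => (𝓟 (s : Set X) : Filter X)) := by
        intro a b
        rcases hchain.total a.2 b.2 with h | h
        · exact ⟨a, le_rfl, by simpa using h⟩
        · exact ⟨b, by simpa using h, le_rfl⟩
      have hnb : (⨅ s : c, (𝓟 (s : Set X) : Filter X)).NeBot :=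
        Filter.iInf_neBot_of_directed' hdir fun s => by
          simpa [Filter.principal_neBot_iff] using (hc s.2).2.ne
      let U := Ultrafilter.of (⨅ s : c, (𝓟 (s : Set X) : Filter X))
      have hU : ∀ s ∈ c, s ∈ U := fun s hs =>
        Ultrafilter.of_le _ (Filter.mem_iInf_of_mem ⟨s, hs⟩ (Filter.mem_principal_self _))
      obtain ⟨s0, hs0⟩ := hne
      obtain ⟨x, hx⟩ := hw U (Filter.mem_of_superset (hU s0 hs0) (hc hs0).1)
      refine ⟨⟨x, fun s hs => hx.mem (hc hs).2.convex (hc hs).2.closed (hU s hs)⟩,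
        isClosed_sInter fun s hs => (hc hs).2.closed,
        convex_sInter fun s hs => (hc hs).2.convex, fun y hy s hs => (hc hs).2.maps (hy s hs)⟩
  obtain ⟨K, hKC, hK⟩ := zorn_superset_nonempty {K | K ⊆ C ∧ Inv T K} key C ⟨subset_rfl, hC⟩
  exact ⟨K, hKC, ⟨hK.prop.2, fun L hL hI => hK.eq_of_subset ⟨hL.trans hK.prop.1, hI⟩ hL⟩⟩

/-- Nonexpansiveness on a set. -/
def NE (T : X → X) (K : Set X) : Prop := ∀ a ∈ K, ∀ b ∈ K, ‖T a - T b‖ ≤ ‖a - b‖

/-- Goebel-Karlovitz lemma, ultrafilter form. -/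
theorem goebel_karlovitz {T : X → X} {K : Set X} (hK : MinInv T K) (hw : WC K) (hT : NE T K)
    {ι : Type*} (U : Ultrafilter ι) (u : ι → X)
    (hu : ∀ i, u i ∈ K) (hd : Tendsto (fun i => ‖T (u i) - u i‖) U (𝓝 0)) {p : X} (hp : p ∈ K)
    {ρ : ℝ} (hρ : ∀ᶠ i in (U : Filter ι), ‖u i - p‖ ≤ ρ) : ∀ a ∈ K, ∀ b ∈ K, ‖a - b‖ ≤ ρ := by
  -- the set of points asymptotically within `ρ` of `u`
  let A : Set X := {y | y ∈ K ∧ ∀ ε > 0, ∀ᶠ i in (U : Filter ι), ‖u i - y‖ ≤ ρ + ε}
  have hA : Inv T A := by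
    refine ⟨⟨p, hp, fun ε hε => hρ.mono fun i hi => by linarith⟩, ?_, ?_, ?_⟩
    · refine isClosed_of_closure_subset fun y hy => ⟨hK.closed.closure_subset
        (closure_mono (fun z hz => hz.1) hy), fun ε hε => ?_⟩
      obtain ⟨z, hz, hzy⟩ := Metric.mem_closure_iff.1 hy (ε / 2) (by positivity)
      refine (hz.2 (ε / 2) (by positivity)).mono fun i hi => ?_
      rw [dist_eq_norm] at hzy
      calc ‖u i - y‖ = ‖(u i - z) - (y - z)‖ := by congr 1; abel
        _ ≤ ‖u i - z‖ + ‖y - z‖ := norm_sub_le _ _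
        _ ≤ ρ + ε := by linarith
    · intro a ha b hb s t hs ht hst
      refine ⟨hK.convex ha.1 hb.1 hs ht hst, fun ε hε => ?_⟩
      filter_upwards [ha.2 ε hε, hb.2 ε hε] with i h1 h2
      have : u i - (s • a + t • b) = s • (u i - a) + t • (u i - b) := by
        rw [smul_sub, smul_sub]
        have : u i = s • u i + t • u i := by rw [← add_smul, hst, one_smul]
        nth_rewrite 1 [this]
        abel
      rw [this]
      calc ‖s • (u i - a) + t • (u i - b)‖ ≤ s * ‖u i - a‖ + t * ‖u i - b‖ := by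
            refine (norm_add_le _ _).trans ?_
            rw [norm_smul, norm_smul, Real.norm_of_nonneg hs, Real.norm_of_nonneg ht]
        _ ≤ s * (ρ + ε) + t * (ρ + ε) := by gcongr
        _ = ρ + ε := by rw [← add_mul, hst, one_mul]
    · intro y hy
      refine ⟨hK.maps hy.1, fun ε hε => ?_⟩
      have h1 : ∀ᶠ i in (U : Filter ι), ‖T (u i) - u i‖ < ε / 2 :=
        hd.eventually (gt_mem_nhds (by positivity))
      filter_upwards [h1, hy.2 (ε / 2) (by positivity)] with i h1 h2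
      have h3 := hT _ (hu i) _ hy.1
      calc ‖u i - T y‖ = ‖(T (u i) - T y) - (T (u i) - u i)‖ := by congr 1; abel
        _ ≤ ‖T (u i) - T y‖ + ‖T (u i) - u i‖ := norm_sub_le _ _
        _ ≤ ρ + ε := by linarith
  have hAK : A = K := hK.min A (fun y hy => hy.1) hA
  obtain ⟨v, hv⟩ := hw.exists U u hu
  have hvK : v ∈ K := hv.mem hK.convex hK.closed (Eventually.of_forall hu)
  let Z : Set X := {z | z ∈ K ∧ ∀ y ∈ K, ‖z - y‖ ≤ ρ}
  have hZ : Inv T Z := by
    refine ⟨⟨v, hvK, fun y hy => ?_⟩, ?_, ?_, ?_⟩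
    · have hy' : y ∈ A := hAK ▸ hy
      exact (hv.sub (WLim.const _ y)).norm_le hy'.2
    · have : Z = K ∩ ⋂ y ∈ K, {z | ‖z - y‖ ≤ ρ} := by ext z; simp [Z]
      rw [this]
      exact hK.closed.inter (isClosed_biInter fun y _ => isClosed_le (by fun_prop) continuous_const)
    · have : Z = K ∩ ⋂ y ∈ K, Metric.closedBall y ρ := by ext z; simp [Z, dist_eq_norm]
      rw [this]
      exact hK.convex.inter (convex_iInter₂ fun y _ => convex_closedBall _ _)
    · intro z hz
      refine ⟨hK.maps hz.1, ?_⟩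
      have hI : Inv T (K ∩ Metric.closedBall (T z) ρ) := by
        obtain ⟨y, hy⟩ := hK.ne
        have hm : ∀ y ∈ K, T y ∈ K ∩ Metric.closedBall (T z) ρ := fun y hy =>
          ⟨hK.maps hy, by
            rw [Metric.mem_closedBall, dist_eq_norm, norm_sub_rev]
            exact (hT _ hz.1 _ hy).trans (hz.2 y hy)⟩
        exact ⟨⟨_, hm y hy⟩, hK.closed.inter Metric.isClosed_closedBall,
          hK.convex.inter (convex_closedBall _ _), fun y hy => hm y hy.1⟩
      have := hK.min _ inter_subset_left hI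
      intro y hy
      rw [← this] at hy
      have h2 := hy.2
      rwa [Metric.mem_closedBall, dist_eq_norm, norm_sub_rev] at h2
  have hZK : Z = K := hK.min Z (fun y hy => hy.1) hZ
  intro a ha b hb
  have ha' : a ∈ Z := hZK ▸ ha
  exact ha'.2 b hb

theorem exists_resolvent [CompleteSpace X] {T : X → X} {K : Set X} (hK : Inv T K) (hT : NE T K)
    {l : ℝ} (h0 : 0 < l) (h1 : l ≤ 1) {y : X} (hy : y ∈ K) :
    ∃ u ∈ K, u = (1 - l) • T u + l • y := by
  let F : X → X := fun u => (1 - l) • T u + l • y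
  have hF : MapsTo F K K := fun u hu =>
    hK.convex (hK.maps hu) hy (by linarith) h0.le (by ring)
  have hc : ContractingWith (Real.toNNReal (1 - l)) (hF.restrict F K K) := by
    refine ⟨by rw [Real.toNNReal_lt_one]; linarith, LipschitzWith.of_dist_le_mul ?_⟩
    rintro ⟨a, ha⟩ ⟨b, hb⟩
    rw [Real.coe_toNNReal _ (by linarith)]
    simp only [Subtype.dist_eq, MapsTo.val_restrict_apply, dist_eq_norm, F]
    have : (1 - l) • T a + l • y - ((1 - l) • T b + l • y) = (1 - l) • (T a - T b) := by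
      rw [smul_sub]; abel
    rw [this, norm_smul, Real.norm_of_nonneg (by linarith)]
    exact mul_le_mul_of_nonneg_left (hT a ha b hb) (by linarith)
  obtain ⟨u, hu, hfix, -⟩ := hc.exists_fixedPoint' hK.closed.isComplete hF hy (edist_ne_top _ _)
  exact ⟨u, hu, hfix.symm⟩

end Vale.Agent.P079
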