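import Mathlib

namespace Vale.Agent.P079

/-- The fixed point property for nonexpansive maps. -/
def FPP (X : Type*) [NormedAddCommGroup X] [NormedSpace ℝ X] : Prop :=
  ∀ C : Set X, C.Nonempty → IsClosed C → Bornology.IsBounded C → Convex ℝ C →
    ∀ T : C → C, (∀ a b : C, ‖(T a : X) - T b‖ ≤ ‖(a : X) - b‖) → ∃ x, T x = x

/-- Reflexivity: the canonical map into the bidual is onto. -/
def Reflexive (X : Type*) [NormedAddCommGroup X] [NormedSpace ℝ X] : Prop :=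
  Function.Surjective (NormedSpace.inclusionInDoubleDual ℝ X)

/-- Asymptotic uniform smoothness of the norm. -/
def AUS (Y : Type*) [NormedAddCommGroup Y] [NormedSpace ℝ Y] : Prop :=
  ∀ ε > (0 : ℝ), ∃ t₀ > (0 : ℝ), ∀ t : ℝ, 0 < t → t ≤ t₀ → ∀ x : Y, ‖x‖ = 1 →
    ∃ Z : Submodule ℝ Y, IsClosed (Z : Set Y) ∧ FiniteDimensional ℝ (Y ⧸ Z) ∧
      ∀ z ∈ Z, ‖z‖ = 1 → ‖x + t • z‖ - 1 ≤ ε * t

end Vale.Agent.P079
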