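import Vale.Agent.P079.Tree
import Vale.Agent.P079.Defs

open Filter Topology Set

namespace Vale.Agent.P079

variable {X : Type*} [NormedAddCommGroup X] [NormedSpace ℝ X]

theorem fpp_of [CompleteSpace X] (hw : ∀ C : Set X, Bornology.IsBounded C → WC C)
    (hno : ∀ D > (0 : ℝ), ∃ (d : ℕ) (P : List (X × StrongDual ℝ X) → X → Prop),
      (∀ L, ∀ f : ℕ → X, (∀ n, ‖f n‖ ≤ D) → WLim (hyperfilter ℕ : Filter ℕ) f 0 → ∃ n, P L (f n)) ∧
      ∀ (g : ℕ → X) (ψ : ℕ → StrongDual ℝ X), ¬ ∀ k < d, ‖g k‖ ≤ D ∧ ‖ψ k‖ ≤ 1 ∧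
        (∀ i ≤ k, D / 2 ≤ ψ k (g i)) ∧ P ((List.range k).map fun i => (g i, ψ i)) (g k)) :
    FPP X := by
  classical
  intro C hne hcl hb hcv T hT
  by_contra hcon
  push Not at hcon
  let S : X → X := fun x => if h : x ∈ C then (T ⟨x, h⟩ : X) else x
  have hS : ∀ x (h : x ∈ C), S x = T ⟨x, h⟩ := fun x h => dif_pos h
  obtain ⟨D, hD, h⟩ := exists_branch (T := S) (C := C)
    ⟨hne, hcl, hcv, fun x hx => by rw [hS x hx]; exact (T _).2⟩ (hw C hb) hb
    (fun a ha b hb => by rw [hS a ha, hS b hb]; exact hT ⟨a, ha⟩ ⟨b, hb⟩)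
    (fun x hx he => hcon ⟨x, hx⟩ (Subtype.ext (by rw [← hS x hx]; exact he)))
  obtain ⟨d, P, hP, hg⟩ := hno D hD
  obtain ⟨g, ψ, hgψ⟩ := h d P hP
  exact hg g ψ hgψ

theorem wc_of_reflexive (h : Reflexive X) (C : Set X) (hb : Bornology.IsBounded C) : WC C := by
  intro U hU
  obtain ⟨M, hM⟩ := hb.exists_norm_le
  have hex : ∀ φ : StrongDual ℝ X, ∃ a : ℝ, Tendsto (fun x => φ x) U (𝓝 a) ∧ |a| ≤ M * ‖φ‖ := by
    intro φ
    have hc : IsCompact (Icc (-(M * ‖φ‖)) (M * ‖φ‖)) := isCompact_Icc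
    have hmem : Icc (-(M * ‖φ‖)) (M * ‖φ‖) ∈ U.map (fun x => φ x) := by
      rw [Ultrafilter.mem_map]
      refine Filter.mem_of_superset hU fun x hx => abs_le.1 ?_
      calc |φ x| ≤ ‖φ‖ * ‖x‖ := φ.le_opNorm x
        _ ≤ ‖φ‖ * M := by gcongr; exact hM x hx
        _ = M * ‖φ‖ := mul_comm _ _
    obtain ⟨a, ha, hle⟩ := hc.ultrafilter_le_nhds' (U.map fun x => φ x) hmem
    exact ⟨a, hle, abs_le.2 ha⟩
  choose a ha ha' using hex
  let F : StrongDual ℝ X →ₗ[ℝ] ℝ :=
    { toFun := a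
      map_add' := fun φ ψ => tendsto_nhds_unique (ha (φ + ψ)) (by simpa using (ha φ).add (ha ψ))
      map_smul' := fun c φ => tendsto_nhds_unique (ha (c • φ))
        (by simpa using (ha φ).const_mul c) }
  obtain ⟨x, hx⟩ := h (F.mkContinuous M fun φ => ha' φ)
  refine ⟨x, fun φ => ?_⟩
  have : φ x = a φ := by
    have := DFunLike.congr_fun hx φ
    simpa [F] using this
  rw [this]
  exact ha φ

theorem wc_of_uc {Y : Type*} [NormedAddCommGroup Y] [NormedSpace ℝ Y] [CompleteSpace Y]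
    [UniformConvexSpace Y] (C : Set Y) (hb : Bornology.IsBounded C) : WC C := by
  intro U hU
  obtain ⟨M, hM⟩ := hb.exists_norm_le
  -- the family of closed convex members of `U`
  let B : Set (Set Y) := {A | A ∈ U ∧ IsClosed A ∧ Convex ℝ A}
  have hball : Metric.closedBall (0 : Y) M ∈ B :=
    ⟨Filter.mem_of_superset hU fun x hx => by simpa using hM x hx, Metric.isClosed_closedBall,
      convex_closedBall _ _⟩
  have hinter : ∀ A ∈ B, ∀ A' ∈ B, A ∩ A' ∈ B := fun A hA A' hA' =>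
    ⟨Filter.inter_mem hA.1 hA'.1, hA.2.1.inter hA'.2.1, hA.2.2.inter hA'.2.2⟩
  have hne : ∀ A ∈ B, A.Nonempty := fun A hA => U.nonempty_of_mem hA.1
  have hbdd : BddAbove ((fun A => Metric.infDist (0 : Y) A) '' B) := by
    refine ⟨M, ?_⟩
    rintro _ ⟨A, hA, rfl⟩
    obtain ⟨y, hy1, hy2⟩ := hne _ (hinter A hA _ hball)
    refine (Metric.infDist_le_dist_of_mem hy1).trans ?_
    simpa [dist_comm] using hy2
  let m : ℝ := sSup ((fun A => Metric.infDist (0 : Y) A) '' B)
  have hm : ∀ A ∈ B, ∀ ε > 0, ∃ y ∈ A, ‖y‖ < m + ε := fun A hA ε hε => by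
    have h1 : Metric.infDist (0 : Y) A ≤ m := le_csSup hbdd ⟨A, hA, rfl⟩
    obtain ⟨y, hy, h2⟩ := (Metric.infDist_lt_iff (hne A hA)).1 (by linarith : _ < m + ε)
    exact ⟨y, hy, by simpa using h2⟩
  have hm' : ∀ ε > 0, ∃ A ∈ B, ∀ y ∈ A, m - ε < ‖y‖ := fun ε hε => by
    obtain ⟨_, ⟨A, hA, rfl⟩, h⟩ := exists_lt_of_lt_csSup (s := (fun A => Metric.infDist (0 : Y) A) '' B)
      ⟨_, _, hball, rfl⟩ (by linarith : m - ε < m)
    exact ⟨A, hA, fun y hy => h.trans_le (by simpa using Metric.infDist_le_dist_of_mem (x := (0 : Y)) hy)⟩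
  let S : B × {ε : ℝ // 0 < ε} → Set Y := fun q => (q.1 : Set Y) ∩ Metric.closedBall 0 (m + q.2)
  have : Nonempty (B × {ε : ℝ // 0 < ε}) := ⟨⟨⟨_, hball⟩, ⟨1, one_pos⟩⟩⟩
  have hdir : Directed (· ≥ ·) (fun q => (𝓟 (S q) : Filter Y)) := by
    intro a b
    refine ⟨⟨⟨a.1 ∩ b.1, hinter _ a.1.2 _ b.1.2⟩, ⟨min a.2 b.2, lt_min a.2.2 b.2.2⟩⟩, ?_, ?_⟩
    · simp only [ge_iff_le, le_principal_iff, mem_principal]
      exact fun y hy => ⟨hy.1.1, Metric.closedBall_subset_closedBall
        (by simp) hy.2⟩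
    · simp only [ge_iff_le, le_principal_iff, mem_principal]
      exact fun y hy => ⟨hy.1.2, Metric.closedBall_subset_closedBall
        (by simp) hy.2⟩
  have hnb : (⨅ q, (𝓟 (S q) : Filter Y)).NeBot :=
    Filter.iInf_neBot_of_directed' hdir fun q => by
      obtain ⟨y, hy, h⟩ := hm _ q.1.2 _ q.2.2
      exact Filter.principal_neBot_iff.2 ⟨y, hy, by simpa using h.le⟩
  have hS : ∀ q, S q ∈ ⨅ q, (𝓟 (S q) : Filter Y) := fun q =>
    Filter.mem_iInf_of_mem q (Filter.mem_principal_self _)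
  have hcau : Cauchy (⨅ q, (𝓟 (S q) : Filter Y)) := by
    rw [Metric.cauchy_iff]
    refine ⟨hnb, fun ε hε => ?_⟩
    obtain ⟨δ, hδ, h⟩ := exists_forall_closed_ball_dist_add_le_two_sub Y
      (ε := ε / (|m| + 1)) (by positivity)
    let η : ℝ := min (min 1 (ε / 4)) (δ * ε / 16)
    have hη : 0 < η := by positivity
    have hη1 : η ≤ 1 := (min_le_left _ _).trans (min_le_left _ _)
    have hη2 : η ≤ ε / 4 := (min_le_left _ _).trans (min_le_right _ _)
    have hη3 : η ≤ δ * ε / 16 := min_le_right _ _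
    obtain ⟨A, hA, hA'⟩ := hm' η hη
    refine ⟨_, hS ⟨⟨A, hA⟩, ⟨η, hη⟩⟩, fun x hx y hy => ?_⟩
    by_contra hxy
    push Not at hxy
    have hx2 : ‖x‖ ≤ m + η := by simpa using hx.2
    have hy2 : ‖y‖ ≤ m + η := by simpa using hy.2
    rw [dist_eq_norm] at hxy
    have hr : ε / 2 ≤ m + η := by linarith [norm_sub_le x y]
    have hr0 : 0 < m + η := by linarith
    have h1 := h (x := (m + η)⁻¹ • x) (by
        rw [norm_smul, Real.norm_of_nonneg (inv_pos.2 hr0).le, inv_mul_le_iff₀ hr0]; linarith)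
      (y := (m + η)⁻¹ • y) (by
        rw [norm_smul, Real.norm_of_nonneg (inv_pos.2 hr0).le, inv_mul_le_iff₀ hr0]; linarith) (by
        rw [← smul_sub, norm_smul, Real.norm_of_nonneg (inv_pos.2 hr0).le, le_inv_mul_iff₀ hr0]
        calc (m + η) * (ε / (|m| + 1)) ≤ (|m| + 1) * (ε / (|m| + 1)) := by
              gcongr; exact le_abs_self m
          _ = ε := by field_simp
          _ ≤ _ := hxy)
    rw [← smul_add, norm_smul, Real.norm_of_nonneg (inv_pos.2 hr0).le, inv_mul_le_iff₀ hr0] at h1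
    have hcv : Convex ℝ A := hA.2.2
    have h2 := hA' _ (hcv hx.1 hy.1 (by norm_num : (0 : ℝ) ≤ 1 / 2) (by norm_num : (0 : ℝ) ≤ 1 / 2)
      (by norm_num))
    rw [← smul_add, norm_smul, Real.norm_of_nonneg (by norm_num)] at h2
    nlinarith
  obtain ⟨y, hy⟩ := CompleteSpace.complete hcau
  have hyA : ∀ A ∈ B, y ∈ A := fun A hA =>
    hA.2.1.mem_of_tendsto (f := id) (b := ⨅ q, (𝓟 (S q) : Filter Y)) hy
      (Filter.mem_of_superset (hS ⟨⟨A, hA⟩, ⟨1, one_pos⟩⟩) fun z hz => hz.1)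
  refine ⟨y, fun φ => tendsto_order.2 ⟨fun a ha => ?_, fun a ha => ?_⟩⟩
  · by_contra hcon
    have h1 : {x | φ x ≤ a} ∈ U := by
      have := (Ultrafilter.eventually_not (f := U)).2 hcon
      exact this.mono fun x hx => not_lt.1 hx
    have := hyA _ ⟨h1, isClosed_le φ.continuous continuous_const,
      convex_halfSpace_le φ.toLinearMap.isLinear a⟩
    exact absurd ha (not_lt.2 this)
  · by_contra hcon
    have h1 : {x | a ≤ φ x} ∈ U := by
      have := (Ultrafilter.eventually_not (f := U)).2 hcon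
      exact this.mono fun x hx => not_lt.1 hx
    have := hyA _ ⟨h1, isClosed_le continuous_const φ.continuous,
      convex_halfSpace_ge φ.toLinearMap.isLinear a⟩
    exact absurd ha (not_lt.2 this)

theorem wc_of_equiv {Y : Type*} [NormedAddCommGroup Y] [NormedSpace ℝ Y] (e : X ≃L[ℝ] Y)
    (hY : ∀ C : Set Y, Bornology.IsBounded C → WC C) (C : Set X) (hb : Bornology.IsBounded C) :
    WC C := by
  intro U hU
  obtain ⟨y, hy⟩ := hY (e '' C) ((e : X →L[ℝ] Y).lipschitz.isBounded_image hb) (U.map e)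
    (by rw [Ultrafilter.mem_map]; exact Filter.mem_of_superset hU fun x hx => ⟨x, hx, rfl⟩)
  refine ⟨e.symm y, fun φ => ?_⟩
  have := hy (φ.comp (e.symm : Y →L[ℝ] X))
  rw [Ultrafilter.coe_map, tendsto_map'_iff] at this
  simpa [Function.comp_def] using this

theorem abs_apply_le {φ : StrongDual ℝ X} (hφ : ‖φ‖ ≤ 1) (v : X) : |φ v| ≤ ‖v‖ := by
  calc |φ v| ≤ ‖φ‖ * ‖v‖ := φ.le_opNorm _
    _ ≤ 1 * ‖v‖ := by gcongr
    _ = ‖v‖ := one_mul _

theorem fpp_of_uc [CompleteSpace X] {Y : Type*} [NormedAddCommGroup Y] [NormedSpace ℝ Y]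
    [CompleteSpace Y] [UniformConvexSpace Y] (e : X ≃L[ℝ] Y) : FPP X := by
  refine fpp_of (wc_of_equiv e wc_of_uc) fun D hD => ?_
  obtain ⟨A, hA, hA'⟩ := (e : X →L[ℝ] Y).bound
  obtain ⟨B, hB, hB'⟩ := (e.symm : Y →L[ℝ] X).bound
  have hB2 : ∀ v : X, ‖v‖ ≤ B * ‖e v‖ := fun v => by simpa using hB' (e v)
  have hA2 : ∀ v : X, ‖e v‖ ≤ A * ‖v‖ := fun v => hA' v
  obtain ⟨δ, hδ, h⟩ := exists_forall_closed_ball_dist_add_le_two_sub Y
    (ε := 1 / (4 * A * B)) (by positivity)
  let q : ℝ := 1 - min δ 1 / 2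
  have hq0 : 0 < q := by have := min_le_right δ 1; simp only [q]; linarith
  have hq1 : q < 1 := by have : 0 < min δ 1 := lt_min hδ one_pos
                         simp only [q]; linarith
  obtain ⟨N, hN⟩ := exists_pow_lt_of_lt_one (x := 1 / (2 * A * B)) (by positivity) hq1
  refine ⟨2 ^ N, fun L v => ∀ a ∈ L, |a.2 v| ≤ D / 4, fun L f _ hf => ?_, fun g ψ hg => ?_⟩
  · have : ∀ᶠ n in (hyperfilter ℕ : Filter ℕ), ∀ a ∈ L, |a.2 (f n)| ≤ D / 4 := by
      have h1 : ∀ᶠ n in (hyperfilter ℕ : Filter ℕ), ∀ a ∈ {a | a ∈ L}, |a.2 (f n)| ≤ D / 4 := by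
        rw [Filter.eventually_all_finite (List.finite_toSet L)]
        intro a _
        have h2 := (hf a.2).abs
        simp only [map_zero, abs_zero] at h2
        exact (h2.eventually (gt_mem_nhds (by positivity : (0 : ℝ) < D / 4))).mono fun n hn => hn.le
      exact h1
    exact this.exists
  · have hlow : ∀ i n k, i + n ≤ k + 1 → k < 2 ^ N →
        n * (D / 2) ≤ ψ k (∑ j ∈ Finset.range n, g (i + j)) := by
      intro i n k h1 h2
      rw [map_sum]
      have := Finset.card_nsmul_le_sum (Finset.range n) (fun j => ψ k (g (i + j))) (D / 2)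
        fun j hj => (hg k h2).2.2.1 _ (by have := Finset.mem_range.1 hj; omega)
      simpa using this
    have hup : ∀ i n k, k < i → i + n ≤ 2 ^ N →
        ψ k (∑ j ∈ Finset.range n, g (i + j)) ≤ n * (D / 4) := by
      intro i n k h1 h2
      rw [map_sum]
      have := Finset.sum_le_card_nsmul (Finset.range n) (fun j => ψ k (g (i + j))) (D / 4)
        fun j hj => (le_abs_self _).trans ((hg (i + j)
          (by have := Finset.mem_range.1 hj; omega)).2.2.2 (g k, ψ k)
          (List.mem_map.2 ⟨k, List.mem_range.2 (by omega), rfl⟩))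
      simpa using this
    have main : ∀ n i, i + 2 ^ n ≤ 2 ^ N →
        ‖e (∑ j ∈ Finset.range (2 ^ n), g (i + j))‖ ≤ 2 ^ n * (A * D) * q ^ n := by
      intro n
      induction n with
      | zero =>
        intro i hi
        simp only [pow_zero, Finset.range_one, Finset.sum_singleton, add_zero, one_mul, mul_one]
        exact (hA2 _).trans (mul_le_mul_of_nonneg_left (hg i (by simpa using hi)).1 hA.le)
      | succ n ih =>
        intro i hi
        have hp : 0 < 2 ^ n := by positivity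
        have e1 : 2 ^ (n + 1) = 2 ^ n + 2 ^ n := by ring
        rw [e1] at hi
        rw [e1, Finset.sum_range_add]
        simp only [← add_assoc]
        have h1 := ih i (by omega)
        have h2 := ih (i + 2 ^ n) (by omega)
        set a := ∑ j ∈ Finset.range (2 ^ n), g (i + j)
        set b := ∑ j ∈ Finset.range (2 ^ n), g (i + 2 ^ n + j)
        have h3 := hlow i (2 ^ n) (i + 2 ^ n - 1) (by omega) (by omega)
        have h4 := hup (i + 2 ^ n) (2 ^ n) (i + 2 ^ n - 1) (by omega) (by omega)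
        have h5 := (le_abs_self _).trans
          (abs_apply_le (hg (i + 2 ^ n - 1) (by omega)).2.1 (a - b))
        rw [map_sub] at h5
        have h6 := hB2 (a - b)
        push_cast at h3 h4
        set r : ℝ := 2 ^ n * (A * D) * q ^ n with hr
        have hr0 : 0 < r := by positivity
        have hqn : q ^ n ≤ 1 := pow_le_one₀ hq0.le hq1.le
        have h7 := h (x := r⁻¹ • e a) (by
            rw [norm_smul, Real.norm_of_nonneg (inv_pos.2 hr0).le, inv_mul_le_iff₀ hr0]; linarith)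
          (y := r⁻¹ • e b) (by
            rw [norm_smul, Real.norm_of_nonneg (inv_pos.2 hr0).le, inv_mul_le_iff₀ hr0]; linarith)
          (by
            rw [← smul_sub, norm_smul, Real.norm_of_nonneg (inv_pos.2 hr0).le, le_inv_mul_iff₀ hr0,
              ← map_sub]
            have h8 : r ≤ 2 ^ n * (A * D) := by
              rw [hr]; exact mul_le_of_le_one_right (by positivity) hqn
            have h9 : 2 ^ n * (D / 4) ≤ B * ‖e (a - b)‖ := by linarith
            calc r * (1 / (4 * A * B)) ≤ 2 ^ n * (A * D) * (1 / (4 * A * B)) := by gcongr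
              _ = 2 ^ n * (D / 4) / B := by field_simp
              _ ≤ ‖e (a - b)‖ := by rw [div_le_iff₀ hB]; linarith)
        rw [← smul_add, norm_smul, Real.norm_of_nonneg (inv_pos.2 hr0).le, inv_mul_le_iff₀ hr0,
          ← map_add] at h7
        have h10 : 2 - δ ≤ 2 * q := by have := min_le_left δ 1; simp only [q]; linarith
        calc ‖e (a + b)‖ ≤ r * (2 - δ) := h7
          _ ≤ r * (2 * q) := by gcongr
          _ = 2 ^ (n + 1) * (A * D) * q ^ (n + 1) := by rw [hr]; ring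
    have hp : 0 < 2 ^ N := by positivity
    have h1 := main N 0 (by omega)
    have h2 := hlow 0 (2 ^ N) (2 ^ N - 1) (by omega) (by omega)
    have h3 := (le_abs_self _).trans (abs_apply_le (hg (2 ^ N - 1) (by omega)).2.1
      (∑ j ∈ Finset.range (2 ^ N), g (0 + j)))
    have h4 := hB2 (∑ j ∈ Finset.range (2 ^ N), g (0 + j))
    push_cast at h2
    have h5 : (2 : ℝ) ^ N * (D / 2) ≤ B * (2 ^ N * (A * D) * q ^ N) := by
      have := mul_le_mul_of_nonneg_left h1 hB.le
      linarith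
    have h6 : B * (2 ^ N * (A * D) * q ^ N) < B * (2 ^ N * (A * D) * (1 / (2 * A * B))) := by
      gcongr
    have h7 : B * (2 ^ N * (A * D) * (1 / (2 * A * B))) = (2 : ℝ) ^ N * (D / 2) := by field_simp
    linarith

theorem exists_near_of_wlim {Y : Type*} [NormedAddCommGroup Y] [NormedSpace ℝ Y] {ι : Type*}
    {U : Filter ι} {f : ι → Y} (hf : WLim U f 0) (Z : Submodule ℝ Y) (hZ : IsClosed (Z : Set Y))
    [FiniteDimensional ℝ (Y ⧸ Z)] {ε : ℝ} (hε : 0 < ε) : ∀ᶠ i in U, ∃ z ∈ Z, ‖f i - z‖ < ε := by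
  let b := Module.finBasis ℝ (Y ⧸ Z)
  have h1 : Tendsto (fun i => Z.mkQ (f i)) U (𝓝 0) := by
    have h2 : ∀ i, Z.mkQ (f i) = ∑ j, (b.coord j (Z.mkQ (f i))) • b j := fun i =>
      (b.sum_repr (Z.mkQ (f i))).symm
    rw [tendsto_congr h2]
    have : (0 : Y ⧸ Z) = ∑ j, (0 : ℝ) • b j := by simp
    rw [this]
    refine tendsto_finsetSum _ fun j _ => Tendsto.smul_const ?_ _
    let φ : StrongDual ℝ Y := (LinearMap.toContinuousLinearMap (b.coord j)).comp
      ⟨Z.mkQ, continuous_quot_mk⟩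
    have h5 := hf φ
    rw [map_zero] at h5
    exact h5
  have h3 := (tendsto_zero_iff_norm_tendsto_zero.1 h1).eventually
    (gt_mem_nhds (by positivity : (0 : ℝ) < ε / 2))
  refine h3.mono fun i hi => ?_
  obtain ⟨m, hm1, hm2⟩ := Submodule.Quotient.norm_mk_lt (Z.mkQ (f i)) (by positivity : 0 < ε / 2)
  refine ⟨f i - m, ?_, by simp only [sub_sub_cancel]; linarith⟩
  rw [← Submodule.Quotient.eq]
  exact hm1.symm

theorem fpp_of_aus [CompleteSpace X] (hX : Reflexive X) {Y : Type*} [NormedAddCommGroup Y]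
    [NormedSpace ℝ Y] (hY : AUS Y) (e : X ≃L[ℝ] Y) : FPP X := by
  refine fpp_of (wc_of_reflexive hX) fun D hD => ?_
  obtain ⟨A, hA, hA'⟩ := (e : X →L[ℝ] Y).bound
  obtain ⟨B, hB, hB'⟩ := (e.symm : Y →L[ℝ] X).bound
  have hB2 : ∀ v : X, ‖v‖ ≤ B * ‖e v‖ := fun v => by simpa using hB' (e v)
  have hA2 : ∀ v : X, ‖e v‖ ≤ A * ‖v‖ := fun v => hA' v
  let c : ℝ := D / (4 * B)
  have hc : 0 < c := by positivity
  let M : ℝ := A * D + c
  have hM : 0 < M := by positivity
  obtain ⟨t0, ht0, hYt⟩ := hY (c / (2 * M)) (by positivity)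
  let N0 : ℝ := M / t0 + A * D
  obtain ⟨d, hd⟩ := exists_nat_gt (N0 / c)
  refine ⟨d, fun L v => ‖e ((L.map Prod.fst).sum + v)‖ ≤ max N0 (‖e (L.map Prod.fst).sum‖ + c),
    fun L f hf1 hf => ?_, fun g ψ hg => ?_⟩
  · set s := e (L.map Prod.fst).sum with hs
    have hfe : ∀ n, ‖e (f n)‖ ≤ A * D := fun n =>
      (hA2 _).trans (mul_le_mul_of_nonneg_left (hf1 n) hA.le)
    by_cases hsm : ‖s‖ ≤ M / t0
    · refine ⟨0, le_max_of_le_left ?_⟩
      rw [map_add]
      exact (norm_add_le _ _).trans (add_le_add hsm (hfe 0))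
    push Not at hsm
    have hs0 : 0 < ‖s‖ := lt_trans (by positivity) hsm
    obtain ⟨Z, hZ, hfin, hZ'⟩ := hYt (M / ‖s‖) (by positivity)
      (by rw [div_le_iff₀ hs0]; rw [div_lt_iff₀ ht0] at hsm; linarith) (‖s‖⁻¹ • s)
      (by rw [norm_smul, Real.norm_of_nonneg (inv_pos.2 hs0).le, inv_mul_cancel₀ hs0.ne'])
    have hfw : WLim (hyperfilter ℕ : Filter ℕ) (fun n => e (f n)) 0 := fun φ => by
      simpa using hf (φ.comp (e : X →L[ℝ] Y))
    obtain ⟨n, z, hz, hz'⟩ := (exists_near_of_wlim hfw Z hZ (by positivity : 0 < c / 2)).exists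
    refine ⟨n, le_max_of_le_right ?_⟩
    rw [map_add, ← hs]
    have hzM : ‖z‖ ≤ M := by
      have := norm_sub_le (e (f n)) (e (f n) - z)
      rw [sub_sub_cancel] at this
      simp only [M]; linarith [hfe n]
    have key : ‖s + z‖ ≤ ‖s‖ + c / 2 := by
      by_cases hz0 : z = 0
      · rw [hz0, add_zero]; linarith
      have hz1 : 0 < ‖z‖ := norm_pos_iff.2 hz0
      have h1 := hZ' (‖z‖⁻¹ • z) (Z.smul_mem _ hz)
        (by rw [norm_smul, Real.norm_of_nonneg (inv_pos.2 hz1).le, inv_mul_cancel₀ hz1.ne'])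
      have h2 : ‖s + (M / ‖z‖) • z‖ ≤ ‖s‖ + c / 2 := by
        have e1 : s + (M / ‖z‖) • z = ‖s‖ • (‖s‖⁻¹ • s + (M / ‖s‖) • ‖z‖⁻¹ • z) := by
          rw [smul_add, smul_smul, smul_smul, smul_smul, mul_inv_cancel₀ hs0.ne', one_smul]
          congr 2
          field_simp
        rw [e1, norm_smul, Real.norm_of_nonneg hs0.le]
        have e2 : ‖s‖ * (1 + c / (2 * M) * (M / ‖s‖)) = ‖s‖ + c / 2 := by field_simp
        rw [← e2]
        exact mul_le_mul_of_nonneg_left (by linarith) hs0.le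
      have e3 : s + z = (1 - ‖z‖ / M) • s + (‖z‖ / M) • (s + (M / ‖z‖) • z) := by
        rw [smul_add, smul_smul, ← add_assoc, ← add_smul]
        have : ‖z‖ / M * (M / ‖z‖) = 1 := by field_simp
        simp [this]
      have h3 : ‖z‖ / M ≤ 1 := by rw [div_le_one hM]; exact hzM
      have h4 : 0 ≤ ‖z‖ / M := by positivity
      rw [e3]
      refine (norm_add_le _ _).trans ?_
      rw [norm_smul, norm_smul, Real.norm_of_nonneg h4, Real.norm_of_nonneg (by linarith)]
      nlinarith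
    have e4 : s + e (f n) = (s + z) + (e (f n) - z) := by abel
    rw [e4]
    linarith [norm_add_le (s + z) (e (f n) - z)]
  · have hsum : ∀ k, (((List.range k).map fun i => (g i, ψ i)).map Prod.fst).sum =
        ∑ i ∈ Finset.range k, g i := by
      intro k
      induction k with
      | zero => simp
      | succ k ih => rw [List.range_succ, List.map_append, List.map_append, List.sum_append, ih,
          Finset.sum_range_succ]; simp
    have hN0 : 0 < N0 := by positivity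
    have main : ∀ k ≤ d, ‖e (∑ i ∈ Finset.range k, g i)‖ ≤ N0 + k * c := by
      intro k
      induction k with
      | zero => intro _; simp [hN0.le]
      | succ k ih =>
        intro hk
        have h1 := (hg k (by omega)).2.2.2
        simp only [hsum] at h1
        rw [Finset.sum_range_succ]
        have h2 := ih (by omega)
        push_cast
        refine h1.trans (max_le ?_ (by linarith))
        have : (0 : ℝ) ≤ (k + 1) * c := by positivity
        linarith
    have hd0 : 0 < d := by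
      have : (0 : ℝ) < d := lt_trans (by positivity) hd
      exact_mod_cast this
    have h1 := main d le_rfl
    have h2 : d * (D / 2) ≤ ψ (d - 1) (∑ i ∈ Finset.range d, g i) := by
      rw [map_sum]
      have := Finset.card_nsmul_le_sum (Finset.range d) (fun j => ψ (d - 1) (g j)) (D / 2)
        fun j hj => (hg (d - 1) (by omega)).2.2.1 _ (by have := Finset.mem_range.1 hj; omega)
      simpa using this
    have h3 := (le_abs_self _).trans (abs_apply_le (hg (d - 1) (by omega)).2.1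
      (∑ i ∈ Finset.range d, g i))
    have h4 := hB2 (∑ i ∈ Finset.range d, g i)
    have h5 : D / 2 = B * (2 * c) := by simp only [c]; field_simp; ring
    rw [div_lt_iff₀ hc] at hd
    have h6 := mul_le_mul_of_nonneg_left h1 hB.le
    rw [h5] at h2
    nlinarith

end Vale.Agent.P079
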