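import Vale.Agent.P079.Basic

/-! The weakly null tree produced by a fixed point free nonexpansive map. -/

open Filter Topology Set

namespace Vale.Agent.P079

variable {X : Type*} [NormedAddCommGroup X] [NormedSpace ℝ X]

theorem exists_gk_modulus {T : X → X} {K : Set X} (hK : MinInv T K) (hw : WC K) (hT : NE T K)
    {D : ℝ} (hD : ∀ ρ < D, ∃ a ∈ K, ∃ b ∈ K, ρ < ‖a - b‖) {p : X} (hp : p ∈ K) {η : ℝ}
    (hη : 0 < η) : ∃ l > 0, ∀ u ∈ K, ‖T u - u‖ ≤ l → D - η ≤ ‖u - p‖ := by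
  by_contra hcon
  push Not at hcon
  choose u hu h1 h2 using fun n : ℕ => hcon (1 / ((n : ℝ) + 1)) (by positivity)
  have hd : Tendsto (fun n => ‖T (u n) - u n‖) (hyperfilter ℕ : Filter ℕ) (𝓝 0) := by
    refine Tendsto.mono_left ?_ (Nat.hyperfilter_le_atTop)
    exact squeeze_zero (fun _ => norm_nonneg _) h1 tendsto_one_div_add_atTop_nhds_zero_nat
  have := goebel_karlovitz hK hw hT (hyperfilter ℕ) u hu hd hp (ρ := D - η)
    (Eventually.of_forall fun n => (h2 n).le)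
  obtain ⟨a, ha, b, hb, hab⟩ := hD (D - η) (by linarith)
  linarith [this a ha b hb]

theorem res_disp {T : X → X} {K : Set X} (hK : Inv T K) {D : ℝ}
    (hD : ∀ a ∈ K, ∀ b ∈ K, ‖a - b‖ ≤ D) {l : ℝ} (h0 : 0 < l) {y u : X} (hy : y ∈ K) (hu : u ∈ K)
    (h : u = (1 - l) • T u + l • y) : ‖T u - u‖ ≤ l * D := by
  have : T u - u = l • (T u - y) := by
    nth_rewrite 2 [h]
    rw [smul_sub, sub_smul, one_smul]; abel
  rw [this, norm_smul, Real.norm_of_nonneg h0.le]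
  exact mul_le_mul_of_nonneg_left (hD _ (hK.maps hu) _ hy) h0.le

theorem res_near {T : X → X} {K : Set X} (hT : NE T K) {l : ℝ} (h0 : 0 < l) (h1 : l ≤ 1)
    {y u f : X} (hu : u ∈ K) (hf : f ∈ K) (h : u = (1 - l) • T u + l • y) :
    ‖u - f‖ ≤ ‖y - f‖ + ‖T f - f‖ / l := by
  have e : u - f = (1 - l) • (T u - T f) + (1 - l) • (T f - f) + l • (y - f) := by
    nth_rewrite 1 [h]
    simp only [smul_sub, sub_smul, one_smul]; abel
  have h2 : ‖u - f‖ ≤ (1 - l) * ‖u - f‖ + (1 - l) * ‖T f - f‖ + l * ‖y - f‖ := by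
    nth_rewrite 1 [e]
    refine (norm_add₃_le).trans ?_
    rw [norm_smul, norm_smul, norm_smul, Real.norm_of_nonneg h0.le,
      Real.norm_of_nonneg (by linarith : (0 : ℝ) ≤ 1 - l)]
    have := mul_le_mul_of_nonneg_left (hT u hu f hf) (by linarith : (0 : ℝ) ≤ 1 - l)
    linarith
  have h3 : l * ‖u - f‖ ≤ l * ‖y - f‖ + ‖T f - f‖ := by nlinarith [norm_nonneg (T f - f)]
  have h4 : l * (‖y - f‖ + ‖T f - f‖ / l) = l * ‖y - f‖ + ‖T f - f‖ := by field_simp
  exact le_of_mul_le_mul_left (h4 ▸ h3) h0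

theorem res_lip {T : X → X} {K : Set X} (hT : NE T K) {l : ℝ} (h0 : 0 < l) (h1 : l ≤ 1)
    {y u y' u' : X} (hu : u ∈ K) (hu' : u' ∈ K) (h : u = (1 - l) • T u + l • y)
    (h' : u' = (1 - l) • T u' + l • y') : ‖u - u'‖ ≤ ‖y - y'‖ := by
  have e : u - u' = (1 - l) • (T u - T u') + l • (y - y') := by
    nth_rewrite 1 [h, h']
    simp only [smul_sub]; abel
  have h2 : ‖u - u'‖ ≤ (1 - l) * ‖u - u'‖ + l * ‖y - y'‖ := by
    nth_rewrite 1 [e]
    refine (norm_add_le _ _).trans ?_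
    rw [norm_smul, norm_smul, Real.norm_of_nonneg h0.le,
      Real.norm_of_nonneg (by linarith : (0 : ℝ) ≤ 1 - l)]
    have := mul_le_mul_of_nonneg_left (hT u hu u' hu') (by linarith : (0 : ℝ) ≤ 1 - l)
    linarith
  exact le_of_mul_le_mul_left (by linarith) h0

/-- The data extracted from a fixed point free nonexpansive map. -/
theorem exists_setup [CompleteSpace X] {T : X → X} {C : Set X} (hC : Inv T C) (hw : WC C)
    (hb : Bornology.IsBounded C) (hT : NE T C) (hfix : ∀ x ∈ C, T x ≠ x) :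
    ∃ (K : Set X) (D : ℝ) (x : ℕ → X) (p : X), 0 < D ∧ MinInv T K ∧ WC K ∧ NE T K ∧
      (∀ a ∈ K, ∀ b ∈ K, ‖a - b‖ ≤ D) ∧ (∀ ρ < D, ∃ a ∈ K, ∃ b ∈ K, ρ < ‖a - b‖) ∧
      (∀ n, x n ∈ K) ∧ p ∈ K ∧ WLim (hyperfilter ℕ : Filter ℕ) x p ∧
      Tendsto (fun n => ‖T (x n) - x n‖) (hyperfilter ℕ : Filter ℕ) (𝓝 0) := by
  obtain ⟨K, hKC, hK⟩ := exists_minInv hC hw
  have hwK := hw.mono hKC
  have hTK : NE T K := fun a ha b hb => hT a (hKC ha) b (hKC hb)
  have hbK : Bornology.IsBounded K := hb.subset hKC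
  have hD1 : ∀ a ∈ K, ∀ b ∈ K, ‖a - b‖ ≤ Metric.diam K := fun a ha b hb => by
    rw [← dist_eq_norm]; exact Metric.dist_le_diam_of_mem hbK ha hb
  obtain ⟨y, hy⟩ := hK.ne
  have hpos : 0 < Metric.diam K := by
    have h1 := hD1 _ (hK.maps hy) _ hy
    have h2 : 0 < ‖T y - y‖ := norm_pos_iff.2 (sub_ne_zero.2 (hfix y (hKC hy)))
    linarith
  have hD2 : ∀ ρ < Metric.diam K, ∃ a ∈ K, ∃ b ∈ K, ρ < ‖a - b‖ := by
    intro ρ hρ
    by_contra hcon
    push Not at hcon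
    have : Metric.diam K ≤ ρ := Metric.diam_le_of_forall_dist_le_of_nonempty ⟨y, hy⟩
      fun a ha b hb => by rw [dist_eq_norm]; exact hcon a ha b hb
    linarith
  choose x hx hxe using fun n : ℕ => exists_resolvent hK.toInv hTK (l := 1 / ((n : ℝ) + 1))
    (by positivity) (by rw [div_le_one (by positivity)]; linarith [(Nat.cast_nonneg n : (0 : ℝ) ≤ n)])
    hy
  obtain ⟨p, hp⟩ := hwK.exists (hyperfilter ℕ) x hx
  refine ⟨K, Metric.diam K, x, p, hpos, hK, hwK, hTK, hD1, hD2, hx,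
    hp.mem hK.convex hK.closed (Eventually.of_forall hx), hp, ?_⟩
  refine Tendsto.mono_left ?_ (Nat.hyperfilter_le_atTop)
  refine squeeze_zero (fun _ => norm_nonneg _)
    (fun n => res_disp hK.toInv hD1 (by positivity) hy (hx n) (hxe n)) ?_
  simpa using tendsto_one_div_add_atTop_nhds_zero_nat.mul_const (Metric.diam K)

/-- Main combinatorial lemma: arbitrarily long branches in a weakly null tree that are seen by
norm one functionals. The predicate `P` selects the branch. -/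
theorem exists_branch [CompleteSpace X] {T : X → X} {C : Set X} (hC : Inv T C) (hw : WC C)
    (hb : Bornology.IsBounded C) (hT : NE T C) (hfix : ∀ x ∈ C, T x ≠ x) :
    ∃ D > (0 : ℝ), ∀ (d : ℕ) (P : List (X × StrongDual ℝ X) → X → Prop),
      (∀ L, ∀ f : ℕ → X, (∀ n, ‖f n‖ ≤ D) → WLim (hyperfilter ℕ : Filter ℕ) f 0 → ∃ n, P L (f n)) →
      ∃ (g : ℕ → X) (ψ : ℕ → StrongDual ℝ X), ∀ k < d, ‖g k‖ ≤ D ∧ ‖ψ k‖ ≤ 1 ∧
        (∀ i ≤ k, D / 2 ≤ ψ k (g i)) ∧ P ((List.range k).map fun i => (g i, ψ i)) (g k) := by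
  obtain ⟨K, D, x, p, hD0, hK, hwK, hTK, hD1, hD2, hx, hp, hxp, hxd⟩ :=
    exists_setup hC hw hb hT hfix
  refine ⟨D, hD0, fun d P hP => ?_⟩
  let w : ℕ → ℝ := fun k => (1 / 4 : ℝ) ^ (k + 1)
  have hw0 : ∀ k, 0 < w k := fun k => by positivity
  have hw1 : ∀ k, w k ≤ 1 := fun k => pow_le_one₀ (by norm_num) (by norm_num)
  have hws : ∀ k, w (k + 1) = w k / 4 := fun k => by simp only [w]; ring
  have hwa : ∀ i k, i ≤ k → w k ≤ w i := fun i k h =>
    pow_le_pow_of_le_one (by norm_num) (by norm_num) (by omega)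
  obtain ⟨l0, hl0, hl⟩ := exists_gk_modulus hK hwK hTK hD2 hp (η := w d * D / 6)
    (by have := hw0 d; positivity)
  let l : ℝ := min 1 (l0 / D)
  have h0 : 0 < l := lt_min one_pos (by positivity)
  have h1 : l ≤ 1 := min_le_left _ _
  have hlD : l * D ≤ l0 := by
    have : l ≤ l0 / D := min_le_right _ _
    rwa [le_div_iff₀ hD0] at this
  obtain ⟨R, hR⟩ : ∃ R : X → X, ∀ y ∈ K, R y ∈ K ∧ R y = (1 - l) • T (R y) + l • y := by
    have : ∀ y : X, ∃ u, y ∈ K → u ∈ K ∧ u = (1 - l) • T u + l • y := fun y => by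
      by_cases hy : y ∈ K
      · obtain ⟨u, hu⟩ := exists_resolvent hK.toInv hTK h0 h1 hy
        exact ⟨u, fun _ => hu⟩
      · exact ⟨y, fun h => (hy h).elim⟩
    choose R hR using this
    exact ⟨R, hR⟩
  have hRfar : ∀ y ∈ K, D - w d * D / 6 ≤ ‖R y - p‖ := fun y hy =>
    hl _ (hR y hy).1 ((res_disp hK.toInv hD1 h0 hy (hR y hy).1 (hR y hy).2).trans hlD)
  -- one step
  have step : ∀ (k : ℕ) (y : X) (L : List (X × StrongDual ℝ X)), ∃ (y' g G : X)
      (ψ : StrongDual ℝ X), y ∈ K → y' ∈ K ∧ ‖y' - y‖ ≤ w k * D ∧ ‖g‖ ≤ D ∧ P L g ∧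
        ‖G - p‖ ≤ (1 - w k) * D ∧ w k • g = R y' - G ∧ ‖ψ‖ ≤ 1 ∧ ψ (R y' - p) = ‖R y' - p‖ := by
    intro k y L
    by_cases hy : y ∈ K
    swap
    · exact ⟨0, 0, 0, 0, fun h => (hy h).elim⟩
    let Y : ℕ → X := fun m => (1 - w k) • y + w k • x m
    have hY : ∀ m, Y m ∈ K := fun m =>
      hK.convex hy (hx m) (by linarith [hw1 k]) (hw0 k).le (by ring)
    obtain ⟨G, hG⟩ := hwK.exists (hyperfilter ℕ) (fun m => R (Y m)) fun m => (hR _ (hY m)).1
    have hGp : ‖G - p‖ ≤ (1 - w k) * D := by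
      refine (hG.sub hxp).norm_le fun ε hε => ?_
      have : ∀ᶠ m in (hyperfilter ℕ : Filter ℕ), ‖T (x m) - x m‖ < ε * l :=
        hxd.eventually (gt_mem_nhds (by positivity))
      refine this.mono fun m hm => ?_
      have h2 := res_near hTK h0 h1 (hR _ (hY m)).1 (hx m) (hR _ (hY m)).2
      have h3 : Y m - x m = (1 - w k) • (y - x m) := by
        simp only [Y, smul_sub, sub_smul, one_smul]; abel
      have h4 : ‖Y m - x m‖ ≤ (1 - w k) * D := by
        rw [h3, norm_smul, Real.norm_of_nonneg (by linarith [hw1 k])]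
        exact mul_le_mul_of_nonneg_left (hD1 _ hy _ (hx m)) (by linarith [hw1 k])
      have h5 : ‖T (x m) - x m‖ / l ≤ ε := by rw [div_le_iff₀ h0]; exact hm.le
      linarith
    have hclose : ∀ m, ‖R (Y m) - G‖ ≤ w k * D := fun m => by
      refine ((WLim.const _ (R (Y m))).sub hG).norm_le fun ε hε => Eventually.of_forall fun n => ?_
      have h2 := res_lip hTK h0 h1 (hR _ (hY m)).1 (hR _ (hY n)).1 (hR _ (hY m)).2 (hR _ (hY n)).2
      have h3 : Y m - Y n = w k • (x m - x n) := by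
        simp only [Y, smul_sub]; abel
      have h4 : ‖Y m - Y n‖ ≤ w k * D := by
        rw [h3, norm_smul, Real.norm_of_nonneg (hw0 k).le]
        exact mul_le_mul_of_nonneg_left (hD1 _ (hx m) _ (hx n)) (hw0 k).le
      linarith
    obtain ⟨m, hm⟩ := hP L (fun m => (w k)⁻¹ • (R (Y m) - G)) (fun m => by
        rw [norm_smul, Real.norm_of_nonneg (inv_pos.2 (hw0 k)).le, inv_mul_le_iff₀ (hw0 k)]
        exact hclose m) (by simpa using (hG.sub (WLim.const _ G)).smul (w k)⁻¹)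
    obtain ⟨ψ, hψ1, hψ2⟩ := exists_dual_vector'' ℝ (R (Y m) - p)
    refine ⟨Y m, _, G, ψ, fun _ => ⟨hY m, ?_, ?_, hm, hGp, ?_, hψ1, by simpa using hψ2⟩⟩
    · have h3 : Y m - y = w k • (x m - y) := by
        simp only [Y, smul_sub, sub_smul, one_smul]; abel
      rw [h3, norm_smul, Real.norm_of_nonneg (hw0 k).le]
      exact mul_le_mul_of_nonneg_left (hD1 _ (hx m) _ hy) (hw0 k).le
    · rw [norm_smul, Real.norm_of_nonneg (inv_pos.2 (hw0 k)).le, inv_mul_le_iff₀ (hw0 k)]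
      exact hclose m
    · rw [smul_smul, mul_inv_cancel₀ (hw0 k).ne', one_smul]
  choose Y g G ψ hstep using step
  let s : ℕ → X × List (X × StrongDual ℝ X) := fun n => Nat.rec (p, [])
    (fun k a => (Y k a.1 a.2, a.2 ++ [(g k a.1 a.2, ψ k a.1 a.2)])) n
  have hs0 : s 0 = (p, []) := rfl
  have hsS : ∀ k, s (k + 1) = (Y k (s k).1 (s k).2,
      (s k).2 ++ [(g k (s k).1 (s k).2, ψ k (s k).1 (s k).2)]) := fun k => rfl
  have hsK : ∀ k, (s k).1 ∈ K := by
    intro k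
    induction k with
    | zero => exact hp
    | succ k ih => rw [hsS]; exact (hstep k _ _ ih).1
  have hsL : ∀ k, (s k).2 = (List.range k).map fun i =>
      (g i (s i).1 (s i).2, ψ i (s i).1 (s i).2) := by
    intro k
    induction k with
    | zero => rfl
    | succ k ih => rw [hsS, List.range_succ, List.map_append, ← ih]; rfl
  have htel : ∀ i j, ‖(s (i + j + 1)).1 - (s (i + 1)).1‖ ≤ (w i - w (i + j)) * D / 3 := by
    intro i j
    induction j with
    | zero => simp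
    | succ j ih =>
      have h2 := (hstep (i + j + 1) _ (s (i + j + 1)).2 (hsK (i + j + 1))).2.1
      have h3 : (s (i + (j + 1) + 1)).1 = Y (i + j + 1) (s (i + j + 1)).1 (s (i + j + 1)).2 := rfl
      rw [h3]
      have h4 := norm_sub_le_norm_sub_add_norm_sub
        (Y (i + j + 1) (s (i + j + 1)).1 (s (i + j + 1)).2) (s (i + j + 1)).1 (s (i + 1)).1
      have h5 : w (i + (j + 1)) = w (i + j) / 4 := hws (i + j)
      have h6 : w (i + j + 1) = w (i + j) / 4 := hws (i + j)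
      rw [h5]; rw [h6] at h2
      linarith
  refine ⟨fun i => g i (s i).1 (s i).2, fun i => ψ i (s i).1 (s i).2, fun k hk => ?_⟩
  obtain ⟨hk1, -, hk3, hk4, -, -, hk7, hk8⟩ := hstep k _ (s k).2 (hsK k)
  refine ⟨hk3, hk7, fun i hi => ?_, by rw [← hsL]; exact hk4⟩
  obtain ⟨hi1, -, -, -, hi5, hi6, -, -⟩ := hstep i _ (s i).2 (hsK i)
  obtain ⟨j, rfl⟩ := Nat.exists_eq_add_of_le hi
  have h2 := htel i j
  have e1 : (s (i + j + 1)).1 = Y (i + j) (s (i + j)).1 (s (i + j)).2 := rfl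
  have e2 : (s (i + 1)).1 = Y i (s i).1 (s i).2 := rfl
  rw [e1, e2] at h2
  set a := Y (i + j) (s (i + j)).1 (s (i + j)).2
  set b := Y i (s i).1 (s i).2
  set φ := ψ (i + j) (s (i + j)).1 (s (i + j)).2
  set Gi := G i (s i).1 (s i).2
  have h3 := res_lip hTK h0 h1 (hR _ hk1).1 (hR _ hi1).1 (hR _ hk1).2 (hR _ hi1).2
  have hφ : ∀ v, φ v ≤ ‖v‖ := fun v => by
    calc φ v ≤ ‖φ v‖ := le_abs_self _
      _ ≤ ‖φ‖ * ‖v‖ := φ.le_opNorm _
      _ ≤ 1 * ‖v‖ := by gcongr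
      _ = ‖v‖ := one_mul _
  have h4 : φ (w i • g i (s i).1 (s i).2) = φ (R a - p) - φ (R a - R b) - φ (Gi - p) := by
    rw [hi6, ← map_sub, ← map_sub]; congr 1; abel
  have h5 := hRfar a hk1
  have h6 := hφ (R a - R b)
  have h7 := hφ (Gi - p)
  have h8 : w d ≤ w i := hwa _ _ (by omega)
  have h9 := hw0 (i + j)
  rw [map_smul, smul_eq_mul, hk8] at h4
  have h10 : w i * (D / 2) ≤ w i * φ (g i (s i).1 (s i).2) := by
    rw [h4]; nlinarith
  exact le_of_mul_le_mul_left h10 (hw0 i)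

end Vale.Agent.P079
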